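import Mathlib.Computability.TuringDegree
import Vale.Agent.P327.Main

/-!
# Rigidity of the Turing degrees

Every automorphism of the partial order of the Turing degrees of subsets of `ℕ` is the identity.
-/

namespace Vale.Agent.Results.P327.Rigidity

open Classical in
/-- The characteristic function of `A ⊆ ℕ`, regarded as an oracle. -/
noncomputable def charFun (A : Set ℕ) : ℕ →. ℕ := fun n => Part.some (if n ∈ A then 1 else 0)

/-- `A ≤_T B`: the characteristic function of `A` is computable from that of `B`
(Mathlib's oracle computability). -/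
def TuringLE (A B : Set ℕ) : Prop := TuringReducible (charFun A) (charFun B)

theorem TuringLE.refl (A : Set ℕ) : TuringLE A A := TuringReducible.refl _

theorem TuringLE.trans {A B C : Set ℕ} (h : TuringLE A B) (h' : TuringLE B C) : TuringLE A C :=
  TuringReducible.trans h h'

/-- Turing equivalence of subsets of `ℕ`. -/
def turingSetoid : Setoid (Set ℕ) where
  r A B := TuringLE A B ∧ TuringLE B A
  iseqv :=
    { refl := fun A => ⟨TuringLE.refl A, TuringLE.refl A⟩
      symm := fun h => ⟨h.2, h.1⟩
      trans := fun h h' => ⟨h.1.trans h'.1, h'.2.trans h.2⟩ }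

/-- The Turing degrees: equivalence classes of subsets of `ℕ`. -/
def Degree : Type := Quotient turingSetoid

/-- The degree of a set. -/
def deg (A : Set ℕ) : Degree := Quotient.mk turingSetoid A

/-- The order of the Turing degrees. -/
def Degree.le : Degree → Degree → Prop :=
  Quotient.lift₂ TuringLE (fun _ _ _ _ h h' => propext
    ⟨fun k => (h.2.trans k).trans h'.1, fun k => (h.1.trans k).trans h'.2⟩)

theorem le_deg (A B : Set ℕ) : Degree.le (deg A) (deg B) ↔ TuringLE A B := Iff.rfl

open Classical in
/-- The element of Cantor space given by a set. -/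
noncomputable def toX (A : Set ℕ) : P327.X := fun n => decide (n ∈ A)

/-- The set given by an element of Cantor space. -/
def toSet (x : P327.X) : Set ℕ := {n | x n = true}

theorem toX_toSet (x : P327.X) : toX (toSet x) = x := by
  funext n
  unfold toX toSet
  cases hx : x n <;> simp [hx]

theorem toSet_toX (A : Set ℕ) : toSet (toX A) = A := by
  ext n
  simp [toX, toSet]

theorem charFun_eq (A : Set ℕ) : charFun A = P327.toPart (toX A) := by
  classical
  funext n
  simp only [charFun, P327.toPart, toX]
  by_cases h : n ∈ A <;> simp [h]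

theorem turingLE_iff (A B : Set ℕ) : TuringLE A B ↔ P327.TLE (toX A) (toX B) := by
  rw [P327.tle_iff_recursiveIn, ← charFun_eq, ← charFun_eq]
  exact RecursiveIn.iff_nat

theorem deg_eq_iff (A B : Set ℕ) : deg A = deg B ↔ TuringLE A B ∧ TuringLE B A :=
  ⟨fun h => Quotient.exact (s := turingSetoid) h, fun h => Quotient.sound (s := turingSetoid) h⟩

/-- **Rigidity of the Turing degrees.**  Every automorphism of the partial order of the Turing
degrees, that is, every bijection `π` of the set of Turing degrees with
`a ≤ b ↔ π a ≤ π b` for all degrees `a`, `b`, is the identity. -/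
theorem result (π : Degree → Degree) (hbij : Function.Bijective π)
    (hord : ∀ a b : Degree, Degree.le a b ↔ Degree.le (π a) (π b)) : ∀ a : Degree, π a = a := by
  classical
  -- choice of representatives
  have hout : ∀ a : Degree, ∃ A : Set ℕ, deg A = a := fun a => Quotient.exists_rep a
  choose out hout using hout
  obtain ⟨ρ, hρ1, hρ2⟩ := Function.bijective_iff_has_inverse.mp hbij
  obtain ⟨p, hp⟩ : ∃ p : P327.X → P327.X, ∀ x, deg (toSet (p x)) = π (deg (toSet x)) :=
    ⟨fun x => toX (out (π (deg (toSet x)))), fun x => by rw [toSet_toX, hout]⟩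
  obtain ⟨q, hq⟩ : ∃ q : P327.X → P327.X, ∀ x, deg (toSet (q x)) = ρ (deg (toSet x)) :=
    ⟨fun x => toX (out (ρ (deg (toSet x)))), fun x => by rw [toSet_toX, hout]⟩
  have hTLE : ∀ x y : P327.X, P327.TLE x y ↔ Degree.le (deg (toSet x)) (deg (toSet y)) := by
    intro x y
    rw [le_deg, turingLE_iff, toX_toSet, toX_toSet]
  have hauto : P327.Auto p q := by
    refine ⟨fun x y => ?_, fun y => ?_⟩
    · rw [hTLE, hTLE, hp, hp]
      exact (hord _ _).symm
    · have h1 : deg (toSet (p (q y))) = deg (toSet y) := by
        rw [hp, hq, hρ2]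
      refine ⟨?_, ?_⟩
      · rw [hTLE, h1]
        exact (le_deg _ _).2 (TuringLE.refl _)
      · rw [hTLE, h1]
        exact (le_deg _ _).2 (TuringLE.refl _)
  intro a
  obtain ⟨A, rfl⟩ : ∃ A, deg A = a := ⟨out a, hout a⟩
  have h1 := P327.auto_trivial hauto (toX A)
  have h2 : deg (toSet (p (toX A))) = deg A := by
    rw [deg_eq_iff]
    have e1 := (hTLE _ _).mp h1.1
    have e2 := (hTLE _ _).mp h1.2
    rw [toSet_toX] at e1 e2
    exact ⟨e1, e2⟩
  rw [hp, toSet_toX] at h2
  exact h2

end Vale.Agent.Results.P327.Rigidity
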